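import Vale.Agent.P224.UG.Ratio

/-!
Row CM of the P224 plan: monotonicity of the least Clifford ratio and its values at levels,
for all dimensions, even and odd.
-/

namespace Vale.Agent.P224.H191

open Vale.Agent.P224

/-- `(1 + 1/n)^n` is monotone -/
lemma one_add_inv_pow_mono (n : ℕ) (hn : 1 ≤ n) :
    (1 + 1 / (n : ℝ)) ^ n ≤ (1 + 1 / ((n : ℝ) + 1)) ^ (n + 1) := by
  have hn' : (0 : ℝ) < n := by exact_mod_cast hn
  -- Bernoulli: (1 + 1/(n+1)) / (1 + 1/n) = 1 - 1/(n+1)^2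
  have h1 : 0 < 1 + 1 / (n : ℝ) := by positivity
  have h2 : (1 + 1 / ((n : ℝ) + 1)) = (1 + 1 / (n : ℝ)) * (1 + -(1 / ((n : ℝ) + 1) ^ 2)) := by
    field_simp
    ring
  have hb : 1 + ((n + 1 : ℕ) : ℝ) * (-(1 / ((n : ℝ) + 1) ^ 2))
      ≤ (1 + -(1 / ((n : ℝ) + 1) ^ 2)) ^ (n + 1) := by
    apply one_add_mul_le_pow
    have : 1 / ((n : ℝ) + 1) ^ 2 ≤ 1 := by
      rw [div_le_one (by positivity)]
      nlinarith
    linarith
  rw [h2, mul_pow]
  have h3 : 1 + ((n + 1 : ℕ) : ℝ) * (-(1 / ((n : ℝ) + 1) ^ 2)) = 1 - 1 / ((n : ℝ) + 1) := by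
    push_cast
    field_simp
    ring
  rw [h3] at hb
  have h4 : (1 + 1 / (n : ℝ)) ^ (n + 1) * (1 - 1 / ((n : ℝ) + 1)) = (1 + 1 / (n : ℝ)) ^ n := by
    rw [pow_succ]
    have : (1 + 1 / (n : ℝ)) * (1 - 1 / ((n : ℝ) + 1)) = 1 := by
      field_simp
      ring
    rw [mul_assoc, this, mul_one]
  calc (1 + 1 / (n : ℝ)) ^ n = (1 + 1 / (n : ℝ)) ^ (n + 1) * (1 - 1 / ((n : ℝ) + 1)) := h4.symm
    _ ≤ _ := mul_le_mul_of_nonneg_left hb (by positivity)

/-- `(1 + 1/n)^(n+1)` is antitone -/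
lemma one_add_inv_pow_succ_anti (n : ℕ) (hn : 1 ≤ n) :
    (1 + 1 / ((n : ℝ) + 1)) ^ (n + 2) ≤ (1 + 1 / (n : ℝ)) ^ (n + 1) := by
  have hn' : (0 : ℝ) < n := by exact_mod_cast hn
  -- (1 + 1/n)/(1+1/(n+1)) = 1 + 1/(n(n+2))
  have h2 : (1 + 1 / (n : ℝ)) = (1 + 1 / ((n : ℝ) + 1)) * (1 + 1 / ((n : ℝ) * (n + 2))) := by
    field_simp
    ring
  have hb : 1 + ((n + 1 : ℕ) : ℝ) * (1 / ((n : ℝ) * (n + 2)))
      ≤ (1 + 1 / ((n : ℝ) * (n + 2))) ^ (n + 1) := by
    apply one_add_mul_le_pow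
    have : 0 ≤ 1 / ((n : ℝ) * (n + 2)) := by positivity
    linarith
  rw [h2, mul_pow]
  have h3 : 1 + 1 / ((n : ℝ) + 1) ≤ 1 + ((n + 1 : ℕ) : ℝ) * (1 / ((n : ℝ) * (n + 2))) := by
    push_cast
    have : 1 / ((n : ℝ) + 1) ≤ ((n : ℝ) + 1) * (1 / ((n : ℝ) * (n + 2))) := by
      rw [mul_one_div, div_le_div_iff₀ (by positivity) (by positivity)]
      nlinarith
    linarith
  calc (1 + 1 / ((n : ℝ) + 1)) ^ (n + 2)
      = (1 + 1 / ((n : ℝ) + 1)) ^ (n + 1) * (1 + 1 / ((n : ℝ) + 1)) := by rw [pow_succ]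
    _ ≤ _ := mul_le_mul_of_nonneg_left (h3.trans hb) (by positivity)

/-- the odd ratio in terms of `m = 2 k + 1` -/
lemma oddRatio_four_eq {k : ℕ} (hk : 1 ≤ k) : oddRatio k ^ 4 =
    4 * (((1 + 1 / ((2 * k : ℕ) : ℝ)) ^ (2 * k))⁻¹ *
      (1 + 1 / ((2 * k + 1 : ℕ) : ℝ)) ^ (2 * k + 1 + 1)) := by
  rw [oddRatio_pow_four]
  have hk' : (0 : ℝ) < k := by exact_mod_cast hk
  rw [← inv_pow]
  congr 3
  · push_cast
    field_simp
  · push_cast
    field_simp
    ring

/-- the odd ratio decreases -/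
theorem oddRatio_anti {k : ℕ} (hk : 1 ≤ k) : oddRatio (k + 1) ≤ oddRatio k := by
  have h0 : 0 ≤ oddRatio k := by
    unfold oddRatio
    positivity
  refine le_of_pow_le_pow_left₀ (n := 4) (by norm_num) h0 ?_
  rw [oddRatio_four_eq hk, oddRatio_four_eq (by omega : 1 ≤ k + 1)]
  have a1 := one_add_inv_pow_mono (2 * k) (by omega)
  have a2 := one_add_inv_pow_mono (2 * k + 1) (by omega)
  have b1 := one_add_inv_pow_succ_anti (2 * k + 1) (by omega)
  have b2 := one_add_inv_pow_succ_anti (2 * k + 1 + 1) (by omega)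
  have ha : (1 + 1 / ((2 * k : ℕ) : ℝ)) ^ (2 * k)
      ≤ (1 + 1 / ((2 * (k + 1) : ℕ) : ℝ)) ^ (2 * (k + 1)) := by
    refine a1.trans ?_
    have e : ((2 * k : ℕ) : ℝ) + 1 = ((2 * k + 1 : ℕ) : ℝ) := by push_cast; ring
    rw [e]
    refine a2.trans (le_of_eq ?_)
    rw [show 2 * (k + 1) = 2 * k + 1 + 1 by ring]
    push_cast
    rfl
  have hb : (1 + 1 / ((2 * (k + 1) + 1 : ℕ) : ℝ)) ^ (2 * (k + 1) + 1 + 1)
      ≤ (1 + 1 / ((2 * k + 1 : ℕ) : ℝ)) ^ (2 * k + 1 + 1) := by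
    refine le_trans ?_ b1
    have e : ((2 * k + 1 : ℕ) : ℝ) + 1 = ((2 * k + 1 + 1 : ℕ) : ℝ) := by push_cast; ring
    rw [e]
    refine le_trans (le_of_eq ?_) b2
    rw [show 2 * (k + 1) + 1 = 2 * k + 1 + 1 + 1 by ring]
    push_cast
    rfl
  have hp : 0 < (1 + 1 / ((2 * k : ℕ) : ℝ)) ^ (2 * k) := by positivity
  gcongr

lemma oddRatio_mono {k : ℕ} (hk : 1 ≤ k) (j : ℕ) : oddRatio (k + j) ≤ oddRatio k := by
  induction j with
  | zero => simp
  | succ j ih => exact (oddRatio_anti (k := k + j) (by omega)).trans ih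

lemma evenRatio_mono' (k j : ℕ) : evenRatio (k + 2 * j) ≤ evenRatio k := by
  induction j with
  | zero => simp
  | succ j ih =>
    rw [show k + 2 * (j + 1) = (k + 2 * j) + 2 by ring]
    exact (evenRatio_anti _).trans ih

lemma evenRatio_level {k0 k : ℕ} {C : ℝ} (h0 : evenRatio k0 ≤ C) (h1 : evenRatio (k0 + 1) ≤ C)
    (hk : k0 ≤ k) : evenRatio k ≤ C := by
  rcases Nat.even_or_odd' (k - k0) with ⟨j, hj | hj⟩
  · obtain rfl : k = k0 + 2 * j := by omega
    exact (evenRatio_mono' k0 j).trans h0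
  · obtain rfl : k = k0 + 1 + 2 * j := by omega
    exact (evenRatio_mono' (k0 + 1) j).trans h1

lemma oddRatio_level {k0 k : ℕ} {C : ℝ} (hk0 : 1 ≤ k0) (h0 : oddRatio k0 ≤ C) (hk : k0 ≤ k) :
    oddRatio k ≤ C := by
  obtain ⟨j, rfl⟩ := Nat.exists_eq_add_of_le hk
  exact (oddRatio_mono hk0 j).trans h0

/-- The general level lemma: all dimensions `m ≥ 2 k0`. -/
theorem leastClifford_level {k0 : ℕ} (hk0 : 1 ≤ k0) {C : ℝ} (h0 : evenRatio k0 ≤ C)
    (h1 : evenRatio (k0 + 1) ≤ C) (h2 : oddRatio k0 ≤ C) {m : ℕ} (hm : 2 * k0 ≤ m) :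
    leastClifford m ≤ C * sphereVol m := by
  rcases Nat.even_or_odd' m with ⟨k, hk | hk⟩
  · subst hk
    exact even_bound (by omega) (evenRatio_level h0 h1 (by omega))
  · subst hk
    exact odd_bound (by omega) (oddRatio_level hk0 h2 (by omega))

lemma evenRatio_zero' : evenRatio 0 = 2 := by
  have h := evenRatio_rec 0
  rw [show 0 + 2 = 2 by norm_num, evenRatio_two] at h
  norm_num at h
  linarith only [h]

/-- closed form along even indices -/
lemma evenRatio_even (j : ℕ) : evenRatio (2 * j) =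
    2 * ∏ i ∈ Finset.range j, (1 - 1 / (4 * (2 * (i : ℝ) + 1) ^ 2)) := by
  induction j with
  | zero => simpa using evenRatio_zero'
  | succ j ih =>
    rw [Finset.prod_range_succ, show 2 * (j + 1) = 2 * j + 2 by ring, evenRatio_rec, ih]
    push_cast
    have : (2 * (j : ℝ) + 1) ≠ 0 := by positivity
    field_simp
    ring

/-- closed form along odd indices -/
lemma evenRatio_odd (j : ℕ) : evenRatio (2 * j + 1) =
    Real.pi / 2 * ∏ i ∈ Finset.range j, (1 - 1 / (4 * (2 * (i : ℝ) + 2) ^ 2)) := by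
  induction j with
  | zero => simpa using evenRatio_one
  | succ j ih =>
    rw [Finset.prod_range_succ, show 2 * (j + 1) + 1 = (2 * j + 1) + 2 by ring, evenRatio_rec, ih]
    push_cast
    have : (2 * (j : ℝ) + 2) ≠ 0 := by positivity
    field_simp
    ring

/-- level 18 -/
theorem lev18 {m : ℕ} (hm : 18 ≤ m) : leastClifford m ≤ 1.43393 * sphereVol m := by
  refine leastClifford_level (k0 := 9) (by norm_num) ?_ ?_ ?_ hm
  · rw [show (9 : ℕ) = 2 * 4 + 1 by norm_num, evenRatio_odd]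
    have := Real.pi_lt_d6
    norm_num [Finset.prod_range_succ]
    linarith
  · rw [show (9 + 1 : ℕ) = 10 by norm_num]
    rw [show (10 : ℕ) = 2 * 5 by norm_num, evenRatio_even]
    norm_num [Finset.prod_range_succ]
  · refine le_of_pow_le_pow_left₀ (n := 4) (by norm_num) (by norm_num) ?_
    rw [oddRatio_pow_four]
    norm_num

/-- level 24 -/
theorem lev24 {m : ℕ} (hm : 24 ≤ m) : leastClifford m ≤ 1.429 * sphereVol m := by
  refine leastClifford_level (k0 := 12) (by norm_num) ?_ ?_ ?_ hm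
  · rw [show (12 : ℕ) = 2 * 6 by norm_num, evenRatio_even]
    norm_num [Finset.prod_range_succ]
  · rw [show (12 + 1 : ℕ) = 13 by norm_num]
    rw [show (13 : ℕ) = 2 * 6 + 1 by norm_num, evenRatio_odd]
    have := Real.pi_lt_d6
    norm_num [Finset.prod_range_succ]
    linarith
  · refine le_of_pow_le_pow_left₀ (n := 4) (by norm_num) (by norm_num) ?_
    rw [oddRatio_pow_four]
    norm_num

/-- level 32 -/
theorem lev32 {m : ℕ} (hm : 32 ≤ m) : leastClifford m ≤ 1.4253 * sphereVol m := by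
  refine leastClifford_level (k0 := 16) (by norm_num) ?_ ?_ ?_ hm
  · rw [show (16 : ℕ) = 2 * 8 by norm_num, evenRatio_even]
    norm_num [Finset.prod_range_succ]
  · rw [show (16 + 1 : ℕ) = 17 by norm_num]
    rw [show (17 : ℕ) = 2 * 8 + 1 by norm_num, evenRatio_odd]
    have := Real.pi_lt_d6
    norm_num [Finset.prod_range_succ]
    linarith
  · refine le_of_pow_le_pow_left₀ (n := 4) (by norm_num) (by norm_num) ?_
    rw [oddRatio_pow_four]
    norm_num

/-- level 40 -/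
theorem lev40 {m : ℕ} (hm : 40 ≤ m) : leastClifford m ≤ 1.42308 * sphereVol m := by
  refine leastClifford_level (k0 := 20) (by norm_num) ?_ ?_ ?_ hm
  · rw [show (20 : ℕ) = 2 * 10 by norm_num, evenRatio_even]
    norm_num [Finset.prod_range_succ]
  · rw [show (20 + 1 : ℕ) = 21 by norm_num]
    rw [show (21 : ℕ) = 2 * 10 + 1 by norm_num, evenRatio_odd]
    have := Real.pi_lt_d6
    norm_num [Finset.prod_range_succ]
    linarith
  · refine le_of_pow_le_pow_left₀ (n := 4) (by norm_num) (by norm_num) ?_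
    rw [oddRatio_pow_four]
    norm_num

/-- level 60 -/
theorem lev60 {m : ℕ} (hm : 60 ≤ m) : leastClifford m ≤ 1.42012 * sphereVol m := by
  refine leastClifford_level (k0 := 30) (by norm_num) ?_ ?_ ?_ hm
  · rw [show (30 : ℕ) = 2 * 15 by norm_num, evenRatio_even]
    norm_num [Finset.prod_range_succ]
  · rw [show (30 + 1 : ℕ) = 31 by norm_num]
    rw [show (31 : ℕ) = 2 * 15 + 1 by norm_num, evenRatio_odd]
    have := Real.pi_lt_d6
    norm_num [Finset.prod_range_succ]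
    linarith
  · refine le_of_pow_le_pow_left₀ (n := 4) (by norm_num) (by norm_num) ?_
    rw [oddRatio_pow_four]
    norm_num

/-- level 92 -/
theorem lev92 {m : ℕ} (hm : 92 ≤ m) : leastClifford m ≤ 1.41807 * sphereVol m := by
  refine leastClifford_level (k0 := 46) (by norm_num) ?_ ?_ ?_ hm
  · rw [show (46 : ℕ) = 2 * 23 by norm_num, evenRatio_even]
    norm_num [Finset.prod_range_succ]
  · rw [show (46 + 1 : ℕ) = 47 by norm_num]
    rw [show (47 : ℕ) = 2 * 23 + 1 by norm_num, evenRatio_odd]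
    have := Real.pi_lt_d6
    norm_num [Finset.prod_range_succ]
    linarith
  · refine le_of_pow_le_pow_left₀ (n := 4) (by norm_num) (by norm_num) ?_
    rw [oddRatio_pow_four]
    norm_num

/-- level 100 -/
theorem lev100 {m : ℕ} (hm : 100 ≤ m) : leastClifford m ≤ 1.41776 * sphereVol m := by
  refine leastClifford_level (k0 := 50) (by norm_num) ?_ ?_ ?_ hm
  · rw [show (50 : ℕ) = 2 * 25 by norm_num, evenRatio_even]
    norm_num [Finset.prod_range_succ]
  · rw [show (50 + 1 : ℕ) = 51 by norm_num]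
    rw [show (51 : ℕ) = 2 * 25 + 1 by norm_num, evenRatio_odd]
    have := Real.pi_lt_d6
    norm_num [Finset.prod_range_succ]
    linarith
  · refine le_of_pow_le_pow_left₀ (n := 4) (by norm_num) (by norm_num) ?_
    rw [oddRatio_pow_four]
    norm_num

/-- the even ratio is at least its limit -/
theorem sqrt_two_le_evenRatio (k : ℕ) : √2 ≤ evenRatio k := by
  rw [UG.evenRatio_eq]
  set z : ℝ := ((k : ℝ) + 1) / 2 with hz
  have hz' : 1 / 2 ≤ z := by
    rw [hz]
    have : (0 : ℝ) ≤ k := by positivity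
    linarith
  have h1 : 0 < Real.Gamma (z - 1 / 4) := Real.Gamma_pos_of_pos (by linarith)
  have h2 : 0 < Real.Gamma (z + 1 / 4) := Real.Gamma_pos_of_pos (by linarith)
  have h3 : 0 < Real.Gamma z := Real.Gamma_pos_of_pos (by linarith)
  have h4 := Real.Gamma_mul_add_mul_le_rpow_Gamma_mul_rpow_Gamma (s := z - 1 / 4) (t := z + 1 / 4)
    (a := 1 / 2) (b := 1 / 2) (by linarith) (by linarith) (by norm_num) (by norm_num) (by norm_num)
  rw [show 1 / 2 * (z - 1 / 4) + 1 / 2 * (z + 1 / 4) = z by ring] at h4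
  have h5 : Real.Gamma z ^ 2 ≤ Real.Gamma (z - 1 / 4) * Real.Gamma (z + 1 / 4) := by
    calc Real.Gamma z ^ 2 ≤ (Real.Gamma (z - 1 / 4) ^ (1 / 2 : ℝ)
          * Real.Gamma (z + 1 / 4) ^ (1 / 2 : ℝ)) ^ 2 := by gcongr
      _ = _ := by
        rw [mul_pow, ← Real.rpow_natCast, ← Real.rpow_natCast, ← Real.rpow_mul h1.le,
          ← Real.rpow_mul h2.le]
        norm_num
  rw [le_div_iff₀ (by positivity)]
  gcongr

end Vale.Agent.P224.H191
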